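import Vale.Agent.P252.R.Spec
import Vale.Agent.P252.H747.Sections

/-! Tasks `approxBox` and `approxBall`, and basic facts on wedges. -/

open scoped ContDiff Topology
open Filter MeasureTheory

namespace Vale.Agent.P252.R

variable {n : ℕ}

/-- The epigraph of a smooth function with positive definite Hessian is convex. -/
lemma convex_epi9 {Ω : Set (En n)} {u : En n → ℝ} (h : SC Ω u) (hcv : Convex ℝ Ω) :
    Convex ℝ (epi Ω u) :=
  (strictConvexOn_of_hess h.op hcv h.sm h.pos).convexOn.convex_epigraph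

lemma AMC.convex_epi9 {Ω : Set (En n)} {u : En n → ℝ} (h : AMC Ω u) : Convex ℝ (epi Ω u) :=
  Vale.Agent.P252.R.convex_epi9 h.toSC h.cv

lemma abs_apply_le_norm (x : En n) (i : Fin n) : |x i| ≤ ‖x‖ := by
  simpa using PiLp.norm_apply_le (p := 2) x i

lemma norm_le_of_abs_le9 {x : En n} {c : ℝ} (h : ∀ i, |x i| ≤ c) :
    ‖x‖ ≤ n * c := by
  have h1 : x = ∑ i, EuclideanSpace.single i (x i) := by
    ext j
    simp [Finset.sum_apply, Pi.single_apply]
  calc ‖x‖ = ‖∑ i, EuclideanSpace.single i (x i)‖ := by rw [← h1]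
    _ ≤ ∑ i, ‖EuclideanSpace.single i (x i)‖ := norm_sum_le _ _
    _ ≤ ∑ _i : Fin n, c := by
        apply Finset.sum_le_sum
        intro i _
        simpa using h i
    _ = n * c := by simp

namespace Wedge

variable {k : ℕ} {K : Set (En n × ℝ)}

lemma zero_mem9 (h : Wedge n k K) : (0 : En n × ℝ) ∈ K :=
  h.orth 0 (by simp) (by simp) (by simp)

/-- Scaling down towards the vertex. -/
lemma smul_mem (h : Wedge n k K) {p : En n × ℝ} (hp : p ∈ K) {s : ℝ} (h0 : 0 ≤ s)
    (h1 : s ≤ 1) : s • p ∈ K := by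
  have := h.cvx hp h.zero_mem9 h0 (by linarith : 0 ≤ 1 - s) (by ring)
  simpa using this

/-- Points of the orthant are recession directions. -/
lemma add_orth_mem (h : Wedge n k K) {p : En n × ℝ} (hp : p ∈ K) {v : En n × ℝ}
    (hv0 : 0 ≤ v.2) (hv1 : ∀ i : Fin n, i.val < k → 0 ≤ v.1 i)
    (hv2 : ∀ i : Fin n, k ≤ i.val → v.1 i = 0) : p + v ∈ K := by
  have key : ∀ m : ℕ, (1 - 1 / ((m : ℝ) + 1)) • p + v ∈ K := by
    intro m
    have hm : (0 : ℝ) < (m : ℝ) + 1 := by positivity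
    have h1 : ((m : ℝ) + 1) • v ∈ K := by
      apply h.orth
      · simp only [Prod.smul_snd, smul_eq_mul]; positivity
      · intro i hi
        have := hv1 i hi
        simp only [Prod.smul_fst, PiLp.smul_apply, smul_eq_mul]; positivity
      · intro i hi
        simp [hv2 i hi]
    have h2 : 1 / ((m : ℝ) + 1) ≤ 1 := by
      rw [div_le_one hm]; linarith [(Nat.cast_nonneg m : (0 : ℝ) ≤ m)]
    have h3 := h.cvx hp h1 (by linarith : 0 ≤ 1 - 1 / ((m : ℝ) + 1))
      (by positivity : 0 ≤ 1 / ((m : ℝ) + 1)) (by ring)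
    rw [smul_smul, one_div_mul_cancel hm.ne', one_smul] at h3
    exact h3
  have hlim : Tendsto (fun m : ℕ => (1 - 1 / ((m : ℝ) + 1)) • p + v) atTop (𝓝 (p + v)) := by
    have h1 : Tendsto (fun m : ℕ => (1 - 1 / ((m : ℝ) + 1))) atTop (𝓝 (1 - 0)) :=
      tendsto_const_nhds.sub tendsto_one_div_add_atTop_nhds_zero_nat
    have h2 := (h1.smul_const p).add_const v
    simpa using h2
  exact h.closed.mem_of_tendsto hlim (Eventually.of_forall key)

/-- Scaled box. -/
lemma box' (h : Wedge n k K) {T : ℝ} (hT : 1 ≤ T) {p : En n × ℝ} (hp : p ∈ K) (h2 : p.2 ≤ T)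
    (h1 : ∀ i : Fin n, i.val < k → p.1 i ≤ T) (j : Fin n) (hj : k ≤ j.val) : |p.1 j| ≤ T := by
  have hT0 : 0 < T := by linarith
  have hs : T⁻¹ • p ∈ K := h.smul_mem hp (by positivity) (inv_le_one_of_one_le₀ hT)
  have h3 := h.box _ hs (by
      simp only [Prod.smul_snd, smul_eq_mul]
      rw [inv_mul_le_iff₀ hT0]; linarith) (by
      intro i hi
      simp only [Prod.smul_fst, PiLp.smul_apply, smul_eq_mul]
      rw [inv_mul_le_iff₀ hT0]; linarith [h1 i hi]) j hj
  simp only [Prod.smul_fst, PiLp.smul_apply, smul_eq_mul, abs_mul, abs_inv, abs_of_pos hT0] at h3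
  rwa [inv_mul_le_iff₀ hT0, mul_one] at h3

/-- Points with bounded arm coordinates are bounded. -/
lemma norm_le (h : Wedge n k K) {T : ℝ} (hT : 1 ≤ T) {p : En n × ℝ} (hp : p ∈ K)
    (h2 : p.2 ≤ T) (h1 : ∀ i : Fin n, i.val < k → p.1 i ≤ T) : ‖p‖ ≤ (n + 1) * T := by
  have hT0 : 0 < T := by linarith
  have ha : ‖p.1‖ ≤ n * T := by
    apply norm_le_of_abs_le9
    intro i
    by_cases hi : i.val < k
    · rw [abs_of_nonneg (h.nonneg p hp i hi)]; exact h1 i hi
    · exact h.box' hT hp h2 h1 i (not_lt.mp hi)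
  have hb : ‖p.2‖ ≤ T := by
    rw [Real.norm_eq_abs, abs_of_nonneg (h.nonneg_z p hp)]; exact h2
  rw [Prod.norm_def]
  apply max_le
  · nlinarith
  · have : (0 : ℝ) ≤ n := Nat.cast_nonneg n
    nlinarith

end Wedge

lemma abs_fst_sub_le (p q : En n × ℝ) (i : Fin n) : |p.1 i - q.1 i| ≤ ‖p - q‖ := by
  have h1 : |(p - q).1 i| ≤ ‖(p - q).1‖ := abs_apply_le_norm _ i
  have h2 : ‖(p - q).1‖ ≤ ‖p - q‖ := norm_fst_le _
  simpa using h1.trans h2

lemma abs_snd_sub_le (p q : En n × ℝ) : |p.2 - q.2| ≤ ‖p - q‖ := by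
  have h2 : ‖(p - q).2‖ ≤ ‖p - q‖ := norm_snd_le _
  simpa using h2

theorem approxBox (n k : ℕ) : Stmt_approxBox n k := by
  intro T e hT he he1
  have hn : (0 : ℝ) ≤ n := Nat.cast_nonneg n
  set R : ℝ := (n + 1) * (T + 1) + 2 with hR
  have hRpos : 0 < R := by positivity
  refine ⟨R, e / 2, hRpos, by linarith, ?_⟩
  intro K hK Ω u hu hclose p hp hp2 hp1
  have hT1 : (1 : ℝ) ≤ T + 1 := by linarith
  -- a point of the epigraph near the vertex
  obtain ⟨p0, hp0, hp0n⟩ := hclose.1 0 hK.zero_mem9 (by simpa using hRpos.le)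
  have hp0n' : ‖p0‖ ≤ e / 2 := by simpa using hp0n
  -- any point with bounded arm coordinates and norm at most `R` has norm at most `R - 1/2`
  have key : ∀ q ∈ epi Ω u, q.2 ≤ T → (∀ i : Fin n, i.val < k → q.1 i ≤ T) → ‖q‖ ≤ R →
      ∃ q' ∈ K, ‖q - q'‖ ≤ e / 2 ∧ q'.2 ≤ T + 1 / 2 ∧
        ∀ i : Fin n, i.val < k → q'.1 i ≤ T + 1 / 2 := by
    intro q hq hq2 hq1 hqR
    obtain ⟨q', hq', hqq⟩ := hclose.2 q hq hqR
    refine ⟨q', hq', hqq, ?_, ?_⟩
    · have := (abs_le.mp (abs_snd_sub_le q q')).1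
      linarith
    · intro i hi
      have := (abs_le.mp (abs_fst_sub_le q q' i)).1
      linarith [hq1 i hi]
  have hnorm : ‖p‖ ≤ R := by
    by_contra hcon
    push Not at hcon
    -- intermediate value theorem on the segment
    have hcont : Continuous fun t : ℝ => ‖(1 - t) • p0 + t • p‖ := by fun_prop
    have h0 : ‖((1 : ℝ) - 0) • p0 + (0 : ℝ) • p‖ ≤ R := by
      simp only [sub_zero, one_smul, zero_smul, add_zero]
      have : (1 : ℝ) ≤ R := by rw [hR]; nlinarith
      linarith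
    have h1 : R ≤ ‖((1 : ℝ) - 1) • p0 + (1 : ℝ) • p‖ := by
      simp only [sub_self, zero_smul, one_smul, zero_add]; exact hcon.le
    obtain ⟨t, ⟨ht0, ht1⟩, ht⟩ := intermediate_value_Icc (zero_le_one' ℝ)
      hcont.continuousOn ⟨h0, h1⟩
    simp only at ht
    set q := (1 - t) • p0 + t • p with hq
    have hqe : q ∈ epi Ω u := hu.convex_epi9 hp0 hp (by linarith) ht0 (by ring)
    have hq2 : q.2 ≤ T := by
      have h3 : p0.2 ≤ T := by
        have := (abs_le.mp (norm_snd_le p0)).2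
        have h4 : p0.2 ≤ ‖p0‖ := (le_abs_self _).trans (norm_snd_le p0)
        linarith
      have : q.2 = (1 - t) * p0.2 + t * p.2 := by simp [hq]
      rw [this]
      nlinarith
    have hq1 : ∀ i : Fin n, i.val < k → q.1 i ≤ T := by
      intro i hi
      have h3 : p0.1 i ≤ T := by
        have h4 : p0.1 i ≤ ‖p0‖ :=
          (le_abs_self _).trans ((abs_apply_le_norm p0.1 i).trans (norm_fst_le p0))
        linarith
      have : q.1 i = (1 - t) * p0.1 i + t * p.1 i := by simp [hq]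
      rw [this]
      nlinarith [hp1 i hi]
    obtain ⟨q', hq'K, hqq', hq'2, hq'1⟩ := key q hqe hq2 hq1 ht.le
    have h5 := hK.norm_le hT1 hq'K (by linarith) (fun i hi => by linarith [hq'1 i hi])
    have h6 : ‖q‖ ≤ ‖q'‖ + ‖q - q'‖ := by
      have := norm_add_le q' (q - q')
      simpa using this
    rw [ht] at h6
    linarith
  obtain ⟨q, hqK, hpq, hq2, hq1⟩ := key p hp hp2 hp1 hnorm
  refine ⟨?_, ?_, ?_⟩
  · have h3 := (abs_le.mp (abs_snd_sub_le p q)).1
    have h4 := hK.nonneg_z q hqK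
    linarith
  · intro i hi
    have h3 := (abs_le.mp (abs_fst_sub_le p q i)).1
    have h4 := hK.nonneg q hqK i hi
    linarith
  · intro j hj
    have h3 := hK.box' (T := T + 1 / 2) (by linarith) hqK hq2 hq1 j hj
    have h4 := abs_fst_sub_le p q j
    have h5 : |p.1 j| ≤ |q.1 j| + |p.1 j - q.1 j| := by
      have := abs_add_le (q.1 j) (p.1 j - q.1 j)
      simpa using this
    linarith

/-- Under `P1` a wedge contains a full neighbourhood of the open orthant. -/
lemma Wedge.mem_of_P1 {k : ℕ} {K : Set (En n × ℝ)} (h : Wedge n k K) {δ : ℝ} (hδ0 : 0 ≤ δ)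
    (hδ : ∀ y : En n, (∀ i : Fin n, i.val < k → y i = 0) → ‖y‖ ≤ δ →
      (ones n k + y, (1 : ℝ)) ∈ K) {s : ℝ} (hs : 0 < s) (hs1 : s ≤ 1) {p : En n × ℝ}
    (hp2 : s ≤ p.2) (hp1 : ∀ i : Fin n, i.val < k → s ≤ p.1 i)
    (hpy : ∀ j : Fin n, k ≤ j.val → |p.1 j| * n ≤ s * δ) : p ∈ K := by
  set y : En n := WithLp.toLp 2 fun j => if j.val < k then 0 else p.1 j / s with hy
  have hy0 : ∀ i : Fin n, i.val < k → y i = 0 := by
    intro i hi; simp [hy, hi]
  have hy1 : ∀ i : Fin n, k ≤ i.val → y i = p.1 i / s := by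
    intro i hi; simp [hy, not_lt.mpr hi]
  have hyn : ‖y‖ ≤ δ := by
    rcases Nat.eq_zero_or_pos n with hn | hn
    · subst hn
      have : y = 0 := Subsingleton.elim _ _
      rw [this, norm_zero]; exact hδ0
    · have hn' : (0 : ℝ) < n := by exact_mod_cast hn
      have h1 : ‖y‖ ≤ n * (δ / n) := by
        apply norm_le_of_abs_le9
        intro i
        by_cases hi : i.val < k
        · rw [hy0 i hi, abs_zero]; positivity
        · rw [hy1 i (not_lt.mp hi), abs_div, abs_of_pos hs, div_le_div_iff₀ hs hn']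
          linarith [hpy i (not_lt.mp hi)]
      rwa [mul_div_cancel₀ _ hn'.ne'] at h1
  have hq : s • ((ones n k + y, (1 : ℝ)) : En n × ℝ) ∈ K := h.smul_mem (hδ y hy0 hyn) hs.le hs1
  have hv := h.add_orth_mem hq (v := p - s • ((ones n k + y, (1 : ℝ)) : En n × ℝ)) (by
      simp only [Prod.snd_sub, Prod.smul_snd, smul_eq_mul, mul_one]; linarith) (by
      intro i hi
      simp only [Prod.fst_sub, Prod.smul_fst, PiLp.sub_apply, PiLp.smul_apply, PiLp.add_apply,
        smul_eq_mul, hy0 i hi, ones, hi, if_true, add_zero, mul_one]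
      linarith [hp1 i hi]) (by
      intro i hi
      simp only [Prod.fst_sub, Prod.smul_fst, PiLp.sub_apply, PiLp.smul_apply, PiLp.add_apply,
        smul_eq_mul, hy1 i hi, ones, not_lt.mpr hi, if_false, zero_add]
      rw [mul_div_cancel₀ _ hs.ne', sub_self])
  simpa using hv

theorem approxBall (n k : ℕ) (hball : Stmt_ballMem n) : Stmt_approxBall n k := by
  rintro ⟨δ, hδ, hP1⟩
  have hn : (0 : ℝ) ≤ n := Nat.cast_nonneg n
  have hn1 : (0 : ℝ) < n + 1 := by positivity
  set c : ℝ := min (1 / 2) (δ / (4 * (n + 1))) with hc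
  have hc0 : 0 < c := by
    apply lt_min (by norm_num)
    positivity
  have hc1 : c ≤ 1 / 2 := min_le_left _ _
  have hc2 : c * (4 * (n + 1)) ≤ δ := by
    have h1 : c ≤ δ / (4 * (n + 1)) := min_le_right _ _
    rwa [le_div_iff₀ (by positivity)] at h1
  refine ⟨c, hc0, ?_⟩
  intro T τ hT hτ hτ1
  refine ⟨(n + 1) * T + 1, c * τ / 2, by positivity, by positivity, ?_⟩
  intro K hK Ω u hu hclose p hp2 hp2' hp1 hpy
  have hcτ : 0 < c * τ := by positivity
  have hcτ1 : c * τ ≤ 1 / 2 * τ := mul_le_mul_of_nonneg_right hc1 hτ.le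
  have hT0 : 0 < T := by linarith
  have hpn : ‖p‖ ≤ (n + 1) * T := by
    have ha : ‖p.1‖ ≤ n * T := by
      apply norm_le_of_abs_le9
      intro i
      by_cases hi : i.val < k
      · rw [abs_of_nonneg (by linarith [(hp1 i hi).1])]; exact (hp1 i hi).2
      · have := hpy i (not_lt.mp hi)
        linarith
    have hb : ‖p.2‖ ≤ T := by
      rw [Real.norm_eq_abs, abs_of_nonneg (by linarith)]; exact hp2'
    rw [Prod.norm_def]
    apply max_le
    · nlinarith
    · nlinarith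
  have hsub : Metric.closedBall p (c * τ) ⊆ K := by
    intro q hq
    have hqp : ‖q - p‖ ≤ c * τ := by
      rw [← dist_eq_norm]; exact Metric.mem_closedBall.mp hq
    apply hK.mem_of_P1 hδ.le (hP1 K hK) (s := τ / 2) (by linarith) (by linarith)
    · have := (abs_le.mp (abs_snd_sub_le q p)).1
      linarith
    · intro i hi
      have := (abs_le.mp (abs_fst_sub_le q p i)).1
      linarith [(hp1 i hi).1]
    · intro j hj
      have h4 := abs_fst_sub_le q p j
      have h5 : |q.1 j| ≤ |p.1 j| + |q.1 j - p.1 j| := by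
        have := abs_add_le (p.1 j) (q.1 j - p.1 j)
        simpa using this
      have h6 : |q.1 j| ≤ 2 * (c * τ) := by linarith [hpy j hj]
      calc |q.1 j| * n ≤ 2 * (c * τ) * n := mul_le_mul_of_nonneg_right h6 hn
        _ ≤ τ / 2 * (c * (4 * (n + 1))) := by nlinarith
        _ ≤ τ / 2 * δ := mul_le_mul_of_nonneg_left hc2 (by linarith)
  have h7 := hball K (epi Ω u) ((n + 1) * T + 1) (c * τ / 2) (c * τ) p hu.cl hu.convex_epi9 hclose
    (by linarith) (by linarith) (by linarith) hsub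
  exact h7 (Metric.mem_closedBall_self (by linarith))

end Vale.Agent.P252.R
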